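import Mathlib
import Vale.Agent.Lib.P096.CornerMain

/-!
# P096, non-commutative case: the bisection lemma

An operator `D` commuting with a decreasing family of projections `p t` that runs from `1` to
`0`, with `‖D * (p s - p t)‖ ≤ C * (t - s)`, vanishes.  Paper proof in the task text.
-/

namespace Vale.Agent.Lib.P096

variable {H : Type*} [NormedAddCommGroup H] [InnerProductSpace ℂ H] [CompleteSpace H]

/-- An operator commuting with two orthogonal projections is bounded on their sum by the larger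
of the two bounds. -/
theorem bisect_max (D e f : H →L[ℂ] H) (hes : star e = e) (hee : e * e = e)
    (hfs : star f = f) (hff : f * f = f) (hef : e * f = 0)
    (hDe : e * D = D * e) (hDf : f * D = D * f) (M : ℝ) (hM0 : 0 ≤ M)
    (h1 : ‖D * e‖ ≤ M) (h2 : ‖D * f‖ ≤ M) : ‖D * (e + f)‖ ≤ M := by
  apply ContinuousLinearMap.opNorm_le_bound _ hM0
  intro ξ
  have e1 : (D * (e + f)) ξ = e (D ξ) + f (D ξ) := by
    rw [mul_add, ← hDe, ← hDf]
    rfl
  have horth : inner ℂ (e (D ξ)) (f (D ξ)) = 0 := by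
    have h0 := ContinuousLinearMap.adjoint_inner_left e (f (D ξ)) (D ξ)
    rw [← ContinuousLinearMap.star_eq_adjoint, hes] at h0
    rw [h0, ← mul_apply_eq_comp, hef, zero_apply, inner_zero_right]
  have hpy := norm_add_sq_eq_norm_sq_add_norm_sq_of_inner_eq_zero _ _ horth
  have he : e (D ξ) = (D * e) (e ξ) := by
    have h3 : e * D = D * e * e := by rw [mul_assoc, hee, hDe]
    rw [← mul_apply_eq_comp, h3]
    rfl
  have hf : f (D ξ) = (D * f) (f ξ) := by
    have h3 : f * D = D * f * f := by rw [mul_assoc, hff, hDf]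
    rw [← mul_apply_eq_comp, h3]
    rfl
  have b1 : ‖e (D ξ)‖ ≤ M * ‖e ξ‖ := by
    rw [he]
    exact (ContinuousLinearMap.le_opNorm _ _).trans (mul_le_mul_of_nonneg_right h1 (norm_nonneg _))
  have b2 : ‖f (D ξ)‖ ≤ M * ‖f ξ‖ := by
    rw [hf]
    exact (ContinuousLinearMap.le_opNorm _ _).trans (mul_le_mul_of_nonneg_right h2 (norm_nonneg _))
  have hsum := proj_orth_sum_le e f hee hes hff hfs hef ξ
  rw [e1]
  have hsq : ‖e (D ξ) + f (D ξ)‖ ^ 2 ≤ (M * ‖ξ‖) ^ 2 := by
    have c1 : ‖e (D ξ)‖ ^ 2 ≤ (M * ‖e ξ‖) ^ 2 := pow_le_pow_left₀ (norm_nonneg _) b1 2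
    have c2 : ‖f (D ξ)‖ ^ 2 ≤ (M * ‖f ξ‖) ^ 2 := pow_le_pow_left₀ (norm_nonneg _) b2 2
    have c3 : M ^ 2 * (‖e ξ‖ ^ 2 + ‖f ξ‖ ^ 2) ≤ M ^ 2 * ‖ξ‖ ^ 2 :=
      mul_le_mul_of_nonneg_left hsum (sq_nonneg M)
    nlinarith [hpy]
  exact (pow_le_pow_iff_left₀ (norm_nonneg _) (mul_nonneg hM0 (norm_nonneg _)) two_ne_zero).1 hsq

theorem bisect_zero (D : H →L[ℂ] H) (p : ℝ → H →L[ℂ] H)
    (hstar : ∀ t, star (p t) = p t) (hidem : ∀ t, p t * p t = p t)
    (hmono : ∀ s t, s ≤ t → p s * p t = p t)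
    (hcomm : ∀ t, p t * D = D * p t)
    (s₀ t₀ : ℝ) (hst : s₀ ≤ t₀) (h0 : p s₀ = 1) (h1 : p t₀ = 0)
    (C : ℝ) (hbound : ∀ s t, s ≤ t → ‖D * (p s - p t)‖ ≤ C * (t - s)) :
    D = 0 := by
  have hq_star : ∀ s t, star (p s - p t) = p s - p t := fun s t => by
    rw [star_sub, hstar, hstar]
  have hps : ∀ s t, s ≤ t → p t * p s = p t := by
    intro s t hst'
    have h2 := congrArg star (hmono s t hst')
    rwa [star_mul, hstar, hstar] at h2
  have hq_idem : ∀ s t, s ≤ t → (p s - p t) * (p s - p t) = p s - p t := by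
    intro s t hst'
    have e : (p s - p t) * (p s - p t) = p s * p s - p s * p t - p t * p s + p t * p t := by
      simp only [sub_mul, mul_sub]
      abel
    rw [e, hidem, hidem, hmono s t hst', hps s t hst']
    abel
  have hq_orth : ∀ s m t, s ≤ m → m ≤ t → (p s - p m) * (p m - p t) = 0 := by
    intro s m t hsm hmt
    have e : (p s - p m) * (p m - p t) = p s * p m - p s * p t - p m * p m + p m * p t := by
      simp only [sub_mul, mul_sub]
      abel
    rw [e, hmono s m hsm, hmono s t (hsm.trans hmt), hidem, hmono m t hmt]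
    abel
  have hq_comm : ∀ s t, (p s - p t) * D = D * (p s - p t) := by
    intro s t
    rw [sub_mul, mul_sub, hcomm, hcomm]
  have key : ∀ n : ℕ, ∃ s t : ℝ, s ≤ t ∧ t - s = (t₀ - s₀) / 2 ^ n ∧
      ‖D‖ ≤ ‖D * (p s - p t)‖ := by
    intro n
    induction n with
    | zero =>
      refine ⟨s₀, t₀, hst, by simp, ?_⟩
      rw [h0, h1, sub_zero, mul_one]
    | succ n ih =>
      obtain ⟨s, t, hst', hlen, hn⟩ := ih
      have hsm : s ≤ (s + t) / 2 := by linarith
      have hmt : (s + t) / 2 ≤ t := by linarith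
      have hsplit : p s - p t = (p s - p ((s + t) / 2)) + (p ((s + t) / 2) - p t) := by abel
      have hmax := bisect_max D (p s - p ((s + t) / 2)) (p ((s + t) / 2) - p t) (hq_star _ _)
        (hq_idem _ _ hsm) (hq_star _ _) (hq_idem _ _ hmt) (hq_orth _ _ _ hsm hmt) (hq_comm _ _)
        (hq_comm _ _) (max ‖D * (p s - p ((s + t) / 2))‖ ‖D * (p ((s + t) / 2) - p t)‖)
        (le_max_of_le_left (norm_nonneg _)) (le_max_left _ _) (le_max_right _ _)
      rw [← hsplit] at hmax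
      rcases le_total ‖D * (p s - p ((s + t) / 2))‖ ‖D * (p ((s + t) / 2) - p t)‖ with hle | hle
      · refine ⟨(s + t) / 2, t, hmt, ?_, ?_⟩
        · rw [pow_succ, ← div_div, ← hlen]
          ring
        · rw [max_eq_right hle] at hmax
          exact hn.trans hmax
      · refine ⟨s, (s + t) / 2, hsm, ?_, ?_⟩
        · rw [pow_succ, ← div_div, ← hlen]
          ring
        · rw [max_eq_left hle] at hmax
          exact hn.trans hmax
  by_contra hD
  have hDpos : 0 < ‖D‖ := norm_pos_iff.2 hD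
  have hK : 0 < |C| * (t₀ - s₀) + 1 := by
    have := mul_nonneg (abs_nonneg C) (sub_nonneg.2 hst)
    linarith
  obtain ⟨n, hn⟩ := exists_pow_lt_of_lt_one (div_pos hDpos hK) (by norm_num : (1 / 2 : ℝ) < 1)
  obtain ⟨s, t, hst', hlen, hle⟩ := key n
  have hb := hbound s t hst'
  have hpow : (0 : ℝ) < (1 / 2) ^ n := by positivity
  have h3 : C * (t - s) ≤ |C| * (t₀ - s₀) * (1 / 2) ^ n := by
    rw [hlen]
    have h4 : (t₀ - s₀) / 2 ^ n = (t₀ - s₀) * (1 / 2) ^ n := by
      rw [one_div, inv_pow, div_eq_mul_inv]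
    rw [h4, ← mul_assoc]
    exact mul_le_mul_of_nonneg_right
      (mul_le_mul_of_nonneg_right (le_abs_self C) (sub_nonneg.2 hst)) hpow.le
  have h5 : (|C| * (t₀ - s₀) + 1) * (1 / 2) ^ n < ‖D‖ := by
    rw [lt_div_iff₀ hK] at hn
    linarith
  nlinarith

end Vale.Agent.Lib.P096
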