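import Mathlib

/-!
# P096, non-commutative case: the cut `(a - t)_+` of a self-adjoint element

`cutPos a t = cfc (fun r => max (r - t) 0) a` (real continuous functional calculus).
Paper proofs are in the task text; every statement is a one-line identity or estimate between
real functions on the spectrum.
-/

namespace Vale.Agent.Lib.P096

variable {B : Type*} [CStarAlgebra B]

/-- The positive cut `(a - t)_+`. -/
noncomputable def cutPos (a : B) (t : ℝ) : B := cfc (fun r : ℝ => max (r - t) 0) a

theorem cutPos_star (a : B) (t : ℝ) : star (cutPos a t) = cutPos a t :=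
  (cfc_predicate (fun r : ℝ => max (r - t) 0) a : IsSelfAdjoint _).star_eq

theorem cutPos_commute (a : B) (t : ℝ) (y : B) (h : y * a = a * y) :
    y * cutPos a t = cutPos a t * y := by
  have hc : Commute a y := h.symm
  exact ((hc.cfc_real (fun r : ℝ => max (r - t) 0)).eq).symm

/-- Every point of the real spectrum of a self-adjoint element is bounded by the norm. -/
theorem CutA_abs_le (a : B) (ha : IsSelfAdjoint a) {r : ℝ} (hr : r ∈ spectrum ℝ a) :
    |r| ≤ ‖a‖ := by
  have h := IsometricContinuousFunctionalCalculus.norm_spectrum_le (𝕜 := ℝ) a hr ha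
  rwa [Real.norm_eq_abs] at h

/-- `a - s = (a - s)_+ - (a - s)_-` with `(a - s)_- * (a - s)_+ = 0`. -/
theorem cutPos_sub (a : B) (ha : IsSelfAdjoint a) (s : ℝ) :
    ∃ Q : B, a - algebraMap ℂ B (s : ℂ) = cutPos a s - Q ∧ Q * cutPos a s = 0 := by
  refine ⟨cfc (fun r : ℝ => max (s - r) 0) a, ?_, ?_⟩
  · have h1 : algebraMap ℂ B (s : ℂ) = algebraMap ℝ B s :=
      (IsScalarTower.algebraMap_apply ℝ ℂ B s).symm
    have h2 : cfc (fun r : ℝ => r - s) a = a - algebraMap ℝ B s := by
      rw [cfc_sub (fun r : ℝ => r) (fun _ : ℝ => s) a, cfc_id' ℝ a, cfc_const s a]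
    have h3 : cutPos a s - cfc (fun r : ℝ => max (s - r) 0) a =
        cfc (fun r : ℝ => max (r - s) 0 - max (s - r) 0) a := by
      unfold cutPos
      rw [cfc_sub (fun r : ℝ => max (r - s) 0) (fun r : ℝ => max (s - r) 0) a]
    rw [h1, ← h2, h3]
    refine cfc_congr fun r _ => ?_
    show r - s = max (r - s) 0 - max (s - r) 0
    rcases le_total s r with hsr | hsr
    · rw [max_eq_left (by linarith), max_eq_right (by linarith)]
      ring
    · rw [max_eq_right (by linarith), max_eq_left (by linarith)]
      ring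
  · unfold cutPos
    rw [← cfc_mul (fun r : ℝ => max (s - r) 0) (fun r : ℝ => max (r - s) 0) a]
    have h0 : (fun r : ℝ => max (s - r) 0 * max (r - s) 0) = fun _ : ℝ => (0 : ℝ) := by
      funext r
      rcases le_total s r with hsr | hsr
      · rw [max_eq_right (by linarith : s - r ≤ 0), zero_mul]
      · rw [max_eq_right (by linarith : r - s ≤ 0), mul_zero]
    rw [h0, cfc_const_zero ℝ a]

theorem cutPos_diff (a : B) (ha : IsSelfAdjoint a) {s t : ℝ} (hst : s ≤ t) :
    ‖cutPos a s - cutPos a t‖ ≤ t - s := by
  have h3 : cutPos a s - cutPos a t =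
      cfc (fun r : ℝ => max (r - s) 0 - max (r - t) 0) a := by
    unfold cutPos
    rw [cfc_sub (fun r : ℝ => max (r - s) 0) (fun r : ℝ => max (r - t) 0) a]
  rw [h3]
  refine norm_cfc_le (by linarith) fun r _ => ?_
  rw [Real.norm_eq_abs, abs_le]
  rcases le_total r s with h1 | h1
  · rw [max_eq_right (by linarith), max_eq_right (by linarith)]
    constructor <;> linarith
  · rcases le_total r t with h2 | h2
    · rw [max_eq_left (by linarith), max_eq_right (by linarith)]
      constructor <;> linarith
    · rw [max_eq_left (by linarith), max_eq_left (by linarith)]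
      constructor <;> linarith

theorem cutPos_factor (a : B) (ha : IsSelfAdjoint a) {s t : ℝ} (hst : s < t) :
    ∃ h : B, cutPos a t = cutPos a s * h := by
  have hpos : ∀ r : ℝ, 0 < max (r - s) (t - s) := fun r =>
    lt_of_lt_of_le (by linarith) (le_max_right _ _)
  have hcont : Continuous fun r : ℝ => max (r - t) 0 / max (r - s) (t - s) := by
    refine Continuous.div (by fun_prop) (by fun_prop) fun r => (hpos r).ne'
  refine ⟨cfc (fun r : ℝ => max (r - t) 0 / max (r - s) (t - s)) a, ?_⟩
  unfold cutPos
  rw [← cfc_mul (fun r : ℝ => max (r - s) 0) (fun r : ℝ => max (r - t) 0 / max (r - s) (t - s)) a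
    (by fun_prop) hcont.continuousOn]
  refine cfc_congr fun r _ => ?_
  show max (r - t) 0 = max (r - s) 0 * (max (r - t) 0 / max (r - s) (t - s))
  rcases le_total t r with h1 | h1
  · have e1 : max (r - s) (t - s) = r - s := max_eq_left (by linarith)
    have e2 : max (r - s) 0 = r - s := max_eq_left (by linarith)
    have hne : r - s ≠ 0 := by
      have : 0 < r - s := by linarith
      exact this.ne'
    rw [e1, e2, mul_div_cancel₀ _ hne]
  · rw [max_eq_right (by linarith : r - t ≤ 0), zero_div, mul_zero]

theorem cutPos_of_norm_le (a : B) (ha : IsSelfAdjoint a) {t : ℝ} (ht : ‖a‖ ≤ t) :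
    cutPos a t = 0 := by
  unfold cutPos
  rw [← cfc_const_zero ℝ a]
  refine cfc_congr fun r hr => ?_
  have h1 := CutA_abs_le a ha hr
  have h2 := le_abs_self r
  show max (r - t) 0 = 0
  exact max_eq_right (by linarith)

theorem cutPos_isUnit (a : B) (ha : IsSelfAdjoint a) {s : ℝ} (hs : s < -‖a‖) :
    IsUnit (cutPos a s) := by
  unfold cutPos
  rw [isUnit_cfc_iff (fun r : ℝ => max (r - s) 0) a (by fun_prop) ha]
  intro r hr
  have h1 := CutA_abs_le a ha hr
  have h2 := neg_abs_le r
  have h3 : 0 < r - s := by linarith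
  have h4 : max (r - s) 0 = r - s := max_eq_left h3.le
  show max (r - s) 0 ≠ 0
  rw [h4]
  exact h3.ne'

end Vale.Agent.Lib.P096
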