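import Mathlib
import Vale.Agent.Lib.P096.NC.CutA

/-!
# P096, non-commutative case: the cut of a positive element, for the polar part

Paper proofs are in the task text.
-/

namespace Vale.Agent.Lib.P096

variable {B : Type*} [CStarAlgebra B]

/-- The cut function is continuous. -/
theorem CutB_cont_cut (t : ℝ) : Continuous (fun r : ℝ => max (r - t) 0) :=
  (continuous_id.sub continuous_const).max continuous_const

/-- For a self-adjoint element with nonnegative spectrum the cut below its norm does not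
vanish. -/
theorem cutPos_ne_zero (a : B) (ha : IsSelfAdjoint a) (hnn : ∀ r ∈ spectrum ℝ a, 0 ≤ r) {t : ℝ}
    (h0 : 0 ≤ t) (ht : t < ‖a‖) : cutPos a t ≠ 0 := by
  intro h
  have hz : cfc (fun r : ℝ => max (r - t) 0) a = 0 := h
  have e : cfc (fun r : ℝ => r - max (r - t) 0) a = a := by
    rw [cfc_sub (fun r : ℝ => r) (fun r : ℝ => max (r - t) 0) a
      continuous_id.continuousOn (CutB_cont_cut t).continuousOn, cfc_id' ℝ a ha, hz, sub_zero]
  have hn : ‖cfc (fun r : ℝ => r - max (r - t) 0) a‖ ≤ t := by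
    apply norm_cfc_le h0
    intro r hr
    have h1 := hnn r hr
    rw [Real.norm_eq_abs, abs_le]
    rcases le_total (r - t) 0 with h2 | h2
    · rw [max_eq_right h2]
      constructor <;> linarith
    · rw [max_eq_left h2]
      constructor <;> linarith
  rw [e] at hn
  linarith

/-- For `t > 0` the cut `(a - t)_+` is a multiple of `a`. -/
theorem cutPos_eq_mul (a : B) (ha : IsSelfAdjoint a) {t : ℝ} (ht : 0 < t) :
    ∃ m : B, cutPos a t = a * m := by
  refine ⟨cfc (fun r : ℝ => max (r - t) 0 / max r t) a, ?_⟩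
  have hpos : ∀ r : ℝ, max r t ≠ 0 := fun r => (lt_of_lt_of_le ht (le_max_right r t)).ne'
  have hc : Continuous (fun r : ℝ => max (r - t) 0 / max r t) :=
    (CutB_cont_cut t).div (continuous_id.max continuous_const) hpos
  have e1 : cutPos a t = cfc (fun r : ℝ => r * (max (r - t) 0 / max r t)) a := by
    unfold cutPos
    apply cfc_congr
    intro r _
    show max (r - t) 0 = r * (max (r - t) 0 / max r t)
    rcases le_total t r with h | h
    · have hr : 0 < r := lt_of_lt_of_le ht h
      rw [max_eq_left h]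
      field_simp
    · have h2 : r - t ≤ 0 := by linarith
      rw [max_eq_right h2]
      simp
  rw [e1, cfc_mul (fun r : ℝ => r) (fun r : ℝ => max (r - t) 0 / max r t) a
    continuous_id.continuousOn hc.continuousOn, cfc_id' ℝ a ha]

/-- For `t > 0` there is a self-adjoint `G` in the bicommutant of `a` (in fact a continuous
function of `a`) that inverts the square root of `a` on the cut: `(G a G - 1) (a - t)_+ = 0`. -/
theorem exists_inv_sqrt_on_cut (a : B) (ha : IsSelfAdjoint a) {t : ℝ} (ht : 0 < t) :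
    ∃ G : B, star G = G ∧ (∀ y : B, y * a = a * y → y * G = G * y) ∧
      (G * a * G - 1) * cutPos a t = 0 := by
  have hpos : ∀ r : ℝ, Real.sqrt (max r t) ≠ 0 := fun r =>
    (Real.sqrt_pos.mpr (lt_of_lt_of_le ht (le_max_right r t))).ne'
  have hg : Continuous (fun r : ℝ => (Real.sqrt (max r t))⁻¹) :=
    (Real.continuous_sqrt.comp (continuous_id.max continuous_const)).inv₀ hpos
  refine ⟨cfc (fun r : ℝ => (Real.sqrt (max r t))⁻¹) a, ?_, ?_, ?_⟩
  · exact (cfc_predicate (fun r : ℝ => (Real.sqrt (max r t))⁻¹) a).star_eq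
  · intro y hy
    have hcomm : Commute a y := hy.symm
    exact ((hcomm.cfc_real (fun r : ℝ => (Real.sqrt (max r t))⁻¹)).eq).symm
  · have e1 : cfc (fun r : ℝ => (Real.sqrt (max r t))⁻¹) a * a *
        cfc (fun r : ℝ => (Real.sqrt (max r t))⁻¹) a =
        cfc (fun r : ℝ => (Real.sqrt (max r t))⁻¹ * r * (Real.sqrt (max r t))⁻¹) a := by
      rw [cfc_mul (fun r : ℝ => (Real.sqrt (max r t))⁻¹ * r)
        (fun r : ℝ => (Real.sqrt (max r t))⁻¹) a
        (hg.mul continuous_id).continuousOn hg.continuousOn,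
        cfc_mul (fun r : ℝ => (Real.sqrt (max r t))⁻¹) (fun r : ℝ => r) a
        hg.continuousOn continuous_id.continuousOn, cfc_id' ℝ a ha]
    have hc2 : Continuous
        (fun r : ℝ => (Real.sqrt (max r t))⁻¹ * r * (Real.sqrt (max r t))⁻¹) :=
      (hg.mul continuous_id).mul hg
    have e2 : cfc (fun r : ℝ => (Real.sqrt (max r t))⁻¹) a * a *
        cfc (fun r : ℝ => (Real.sqrt (max r t))⁻¹) a - 1 =
        cfc (fun r : ℝ => (Real.sqrt (max r t))⁻¹ * r * (Real.sqrt (max r t))⁻¹ - 1) a := by
      rw [cfc_sub (fun r : ℝ => (Real.sqrt (max r t))⁻¹ * r * (Real.sqrt (max r t))⁻¹)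
        (fun _ : ℝ => (1 : ℝ)) a hc2.continuousOn continuous_const.continuousOn,
        cfc_const_one ℝ a ha, e1]
    have hc3 : Continuous
        (fun r : ℝ => (Real.sqrt (max r t))⁻¹ * r * (Real.sqrt (max r t))⁻¹ - 1) :=
      hc2.sub continuous_const
    rw [e2]
    unfold cutPos
    rw [← cfc_mul (fun r : ℝ => (Real.sqrt (max r t))⁻¹ * r * (Real.sqrt (max r t))⁻¹ - 1)
      (fun r : ℝ => max (r - t) 0) a hc3.continuousOn (CutB_cont_cut t).continuousOn]
    have e3 : cfc (fun r : ℝ => ((Real.sqrt (max r t))⁻¹ * r * (Real.sqrt (max r t))⁻¹ - 1) *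
        max (r - t) 0) a = cfc (0 : ℝ → ℝ) a := by
      apply cfc_congr
      intro r _
      show ((Real.sqrt (max r t))⁻¹ * r * (Real.sqrt (max r t))⁻¹ - 1) * max (r - t) 0 = 0
      rcases le_total t r with h | h
      · have hr : 0 < r := lt_of_lt_of_le ht h
        rw [max_eq_left h]
        have hs : Real.sqrt r * Real.sqrt r = r := Real.mul_self_sqrt hr.le
        have hs0 : Real.sqrt r ≠ 0 := (Real.sqrt_pos.mpr hr).ne'
        have h1 : (Real.sqrt r)⁻¹ * r * (Real.sqrt r)⁻¹ = 1 := by
          field_simp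
          linarith
        rw [h1, sub_self, zero_mul]
      · have h2 : r - t ≤ 0 := by linarith
        rw [max_eq_right h2, mul_zero]
    rw [e3, cfc_zero]

end Vale.Agent.Lib.P096
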