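import Mathlib

/-!
# P096, non-commutative case: the range projection of an operator

`rangeProj P` is the orthogonal projection onto the closure of the range of `P`.
Paper proofs (all elementary Hilbert space facts) are in the task text.
-/

namespace Vale.Agent.Lib.P096

variable {H : Type*} [NormedAddCommGroup H] [InnerProductSpace ℂ H] [CompleteSpace H]

/-- The orthogonal projection onto the closure of the range of `P`. -/
noncomputable def rangeProj (P : H →L[ℂ] H) : H →L[ℂ] H :=
  P.range.topologicalClosure.starProjection

theorem rangeProj_aux_isStarProjection (P : H →L[ℂ] H) : IsStarProjection (rangeProj P) :=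
  isStarProjection_starProjection

theorem rangeProj_star (P : H →L[ℂ] H) : star (rangeProj P) = rangeProj P :=
  (rangeProj_aux_isStarProjection P).isSelfAdjoint.star_eq

theorem rangeProj_mul_self (P : H →L[ℂ] H) : rangeProj P * rangeProj P = rangeProj P :=
  (rangeProj_aux_isStarProjection P).isIdempotentElem.eq

theorem rangeProj_aux_mem (P : H →L[ℂ] H) (ξ : H) : P ξ ∈ P.range.topologicalClosure :=
  P.range.le_topologicalClosure ⟨ξ, rfl⟩

theorem rangeProj_aux_apply_mem (P : H →L[ℂ] H) (ξ : H) :
    rangeProj P ξ ∈ P.range.topologicalClosure :=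
  Submodule.starProjection_apply_mem _ ξ

/-- The range projection acts as the identity on the range. -/
theorem rangeProj_mul (P : H →L[ℂ] H) : rangeProj P * P = P := by
  ext ξ
  show P.range.topologicalClosure.starProjection (P ξ) = P ξ
  exact Submodule.starProjection_eq_self_iff.2 (rangeProj_aux_mem P ξ)

/-- An operator that kills the range kills the range projection. -/
theorem mul_rangeProj_eq_zero (X P : H →L[ℂ] H) (h : X * P = 0) : X * rangeProj P = 0 := by
  have hle : P.range.topologicalClosure ≤ X.ker := by
    apply Submodule.topologicalClosure_minimal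
    · rintro _ ⟨ξ, rfl⟩
      have h1 : (X * P) ξ = 0 := by rw [h]; rfl
      exact h1
    · exact X.isClosed_ker
  ext ξ
  exact hle (rangeProj_aux_apply_mem P ξ)

theorem rangeProj_zero : rangeProj (0 : H →L[ℂ] H) = 0 := by
  have h := mul_rangeProj_eq_zero (1 : H →L[ℂ] H) 0 (mul_zero _)
  rwa [one_mul] at h

theorem rangeProj_of_isUnit (P : H →L[ℂ] H) (h : IsUnit P) : rangeProj P = 1 := by
  obtain ⟨u, rfl⟩ := h
  have h1 : rangeProj (u : H →L[ℂ] H) * (u : H →L[ℂ] H) * ((u⁻¹ : (H →L[ℂ] H)ˣ) : H →L[ℂ] H)
      = (u : H →L[ℂ] H) * ((u⁻¹ : (H →L[ℂ] H)ˣ) : H →L[ℂ] H) := by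
    rw [rangeProj_mul]
  rwa [mul_assoc, Units.mul_inv, mul_one] at h1

theorem rangeProj_aux_invariant (P y : H →L[ℂ] H) (h1 : y * P = P * y) :
    ∀ k ∈ P.range.topologicalClosure, y k ∈ P.range.topologicalClosure := by
  have hle : P.range.topologicalClosure
      ≤ (P.range.topologicalClosure).comap (y : H →ₗ[ℂ] H) := by
    apply Submodule.topologicalClosure_minimal
    · rintro _ ⟨ξ, rfl⟩
      show y (P ξ) ∈ P.range.topologicalClosure
      have h2 : y (P ξ) = P (y ξ) := by
        have h3 : (y * P) ξ = (P * y) ξ := by rw [h1]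
        exact h3
      rw [h2]
      exact rangeProj_aux_mem P (y ξ)
    · exact (Submodule.isClosed_topologicalClosure _).preimage y.continuous
  exact fun k hk => hle hk

/-- An operator commuting with `P`, whose adjoint also commutes with `P`, commutes with the range
projection of `P`. -/
theorem rangeProj_commute (P y : H →L[ℂ] H) (h1 : y * P = P * y) (h2 : star y * P = P * star y) :
    y * rangeProj P = rangeProj P * y := by
  ext ξ
  show y (rangeProj P ξ) = P.range.topologicalClosure.starProjection (y ξ)
  symm
  apply Submodule.eq_starProjection_of_mem_of_inner_eq_zero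
  · exact rangeProj_aux_invariant P y h1 _ (rangeProj_aux_apply_mem P ξ)
  · intro w hw
    have h3 : y ξ - y (rangeProj P ξ) = y (ξ - rangeProj P ξ) := by rw [map_sub]
    rw [h3, ← ContinuousLinearMap.adjoint_inner_right, ← ContinuousLinearMap.star_eq_adjoint]
    exact Submodule.starProjection_inner_eq_zero ξ _ (rangeProj_aux_invariant P (star y) h2 w hw)

/-- The range projection of an element of a von Neumann algebra lies in the algebra. -/
theorem rangeProj_mem (N : VonNeumannAlgebra H) (P : H →L[ℂ] H) (hP : P ∈ N) :
    rangeProj P ∈ N := by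
  rw [← N.commutant_commutant, VonNeumannAlgebra.mem_commutant_iff]
  intro y hy
  have h1 : y * P = P * y := ((VonNeumannAlgebra.mem_commutant_iff.1 hy) P hP).symm
  have h2 : star y * P = P * star y :=
    ((VonNeumannAlgebra.mem_commutant_iff.1 (star_mem hy)) P hP).symm
  exact rangeProj_commute P y h1 h2

end Vale.Agent.Lib.P096
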