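import Mathlib
import Vale.Agent.Lib.P096.NC.RangeProj
import Vale.Agent.Lib.P096.NC.CutB
import Vale.Agent.Lib.P096.NC.Bisect
import Vale.Agent.Lib.P096.CornerMain

/-!
# P096: a non-commutative von Neumann algebra contains a nonzero `v` with `v * v = 0` and
`v * star v * v = v`

Assembly of the leaves `RangeProj`, `CutA`, `CutB`, `Bisect`.
-/

namespace Vale.Agent.Lib.P096

section NC

variable {H : Type*} [NormedAddCommGroup H] [InnerProductSpace ℂ H] [CompleteSpace H]

/-- Membership in a von Neumann algebra through the double commutant. -/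
theorem vn_mem_of_commute (N : VonNeumannAlgebra H) (z : H →L[ℂ] H)
    (h : ∀ y ∈ N.commutant, y * z = z * y) : z ∈ N := by
  rw [← N.commutant_commutant, VonNeumannAlgebra.mem_commutant_iff]
  exact h

theorem cutPos_mem (N : VonNeumannAlgebra H) (a : H →L[ℂ] H) (ha : a ∈ N) (t : ℝ) :
    cutPos a t ∈ N := by
  apply vn_mem_of_commute
  intro y hy
  apply cutPos_commute
  exact ((VonNeumannAlgebra.mem_commutant_iff.1 hy) a ha).symm

/-- A self-adjoint idempotent has norm at most one. -/
theorem norm_proj_le_one (e : H →L[ℂ] H) (hee : e * e = e) (hes : star e = e) : ‖e‖ ≤ 1 := by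
  have h := CStarRing.norm_star_mul_self (x := e)
  rw [hes, hee] at h
  by_contra hcon
  push Not at hcon
  nlinarith [norm_nonneg e]

/-- An operator commuting with all spectral cut projections of a self-adjoint operator commutes
with the operator. -/
theorem commute_of_cuts (a b : H →L[ℂ] H) (ha : IsSelfAdjoint a)
    (h : ∀ t : ℝ, rangeProj (cutPos a t) * b = b * rangeProj (cutPos a t)) : a * b = b * a := by
  obtain ⟨p, hp⟩ : ∃ p : ℝ → H →L[ℂ] H, p = fun t => rangeProj (cutPos a t) := ⟨_, rfl⟩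
  have hpt : ∀ t, p t = rangeProj (cutPos a t) := fun t => by rw [hp]
  have hstar : ∀ t, star (p t) = p t := fun t => by rw [hpt]; exact rangeProj_star _
  have hidem : ∀ t, p t * p t = p t := fun t => by rw [hpt]; exact rangeProj_mul_self _
  have hpP : ∀ t, p t * cutPos a t = cutPos a t := fun t => by rw [hpt]; exact rangeProj_mul _
  have hPp : ∀ t, cutPos a t * p t = cutPos a t := by
    intro t
    have h1 := congrArg star (hpP t)
    rw [star_mul, cutPos_star, hstar] at h1
    exact h1
  have hkill : ∀ (X : H →L[ℂ] H) (t : ℝ), X * cutPos a t = 0 → X * p t = 0 := by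
    intro X t hX
    rw [hpt]
    exact mul_rangeProj_eq_zero _ _ hX
  have hpb : ∀ t, p t * b = b * p t := fun t => by rw [hpt]; exact h t
  have hmono : ∀ s t, s ≤ t → p s * p t = p t := by
    intro s t hst
    rcases eq_or_lt_of_le hst with heq | hlt
    · rw [heq]
      exact hidem t
    · obtain ⟨hh, hhe⟩ := cutPos_factor a ha hlt
      have h1 : (p s - 1) * cutPos a t = 0 := by
        rw [hhe, ← mul_assoc, sub_mul, one_mul, hpP, sub_self, zero_mul]
      have h2 := hkill _ _ h1
      rw [sub_mul, one_mul] at h2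
      exact sub_eq_zero.1 h2
  have hpa : ∀ t, p t * a = a * p t := by
    intro t
    have h1 : a * cutPos a t = cutPos a t * a := cutPos_commute a t a rfl
    have h2 : star a * cutPos a t = cutPos a t * star a := by
      rw [ha.star_eq]
      exact h1
    rw [hpt]
    exact (rangeProj_commute (cutPos a t) a h1 h2).symm
  have hcomm : ∀ t, p t * (a * b - b * a) = (a * b - b * a) * p t := by
    intro t
    have e1 : p t * (a * b) = a * b * p t := by
      rw [← mul_assoc, hpa t, mul_assoc, hpb t, ← mul_assoc]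
    have e2 : p t * (b * a) = b * a * p t := by
      rw [← mul_assoc, hpb t, mul_assoc, hpa t, ← mul_assoc]
    rw [mul_sub, sub_mul, e1, e2]
  have hbound : ∀ s t, s ≤ t → ‖(a * b - b * a) * (p s - p t)‖ ≤ 2 * ‖b‖ * (t - s) := by
    intro s t hst
    obtain ⟨σ, hσ⟩ : ∃ σ : H →L[ℂ] H, σ = algebraMap ℂ (H →L[ℂ] H) (s : ℂ) := ⟨_, rfl⟩
    obtain ⟨Q, hQ1, hQ2⟩ := cutPos_sub a ha s
    rw [← hσ] at hQ1
    have hQp : Q * p s = 0 := hkill _ _ hQ2
    have h1 : (a - σ) * p s = cutPos a s := by
      rw [hQ1, sub_mul, hQp, sub_zero, hPp s]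
    have hq : p s - p t = p s * (1 - p t) := by
      rw [mul_sub, mul_one, hmono s t hst]
    have h2 : (a - σ) * (p s - p t) = (cutPos a s - cutPos a t) * (1 - p t) := by
      rw [hq, ← mul_assoc, h1, sub_mul (cutPos a s) (cutPos a t), mul_sub (cutPos a t), mul_one,
        hPp t, sub_self, sub_zero]
    have hnorm1 : ‖1 - p t‖ ≤ 1 := by
      apply norm_proj_le_one
      · have e : (1 - p t) * (1 - p t) = 1 - p t - p t + p t * p t := by
          simp only [sub_mul, mul_sub, one_mul, mul_one]
          abel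
        rw [e, hidem t]
        abel
      · rw [star_sub, star_one, hstar t]
    have h3 : ‖(a - σ) * (p s - p t)‖ ≤ t - s := by
      rw [h2]
      calc ‖(cutPos a s - cutPos a t) * (1 - p t)‖
          ≤ ‖cutPos a s - cutPos a t‖ * ‖1 - p t‖ := norm_mul_le _ _
        _ ≤ (t - s) * 1 :=
            mul_le_mul (cutPos_diff a ha hst) hnorm1 (norm_nonneg _) (by linarith)
        _ = t - s := mul_one _
    have hqb : (p s - p t) * b = b * (p s - p t) := by
      rw [sub_mul, mul_sub, hpb s, hpb t]
    have hσb : σ * b = b * σ := by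
      rw [hσ]
      exact Algebra.commutes _ _
    have h4 : (a * b - b * a) * (p s - p t)
        = (a - σ) * (p s - p t) * b - b * ((a - σ) * (p s - p t)) := by
      have e1 : a * b * (p s - p t) = a * (p s - p t) * b := by
        rw [mul_assoc, ← hqb, ← mul_assoc]
      have e2 : σ * (p s - p t) * b = b * (σ * (p s - p t)) := by
        rw [mul_assoc, hqb, ← mul_assoc, hσb, mul_assoc]
      rw [sub_mul (a * b) (b * a), e1, sub_mul a σ, sub_mul (a * (p s - p t)), mul_sub b, e2,
        mul_assoc b a]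
      abel
    rw [h4]
    calc ‖(a - σ) * (p s - p t) * b - b * ((a - σ) * (p s - p t))‖
        ≤ ‖(a - σ) * (p s - p t) * b‖ + ‖b * ((a - σ) * (p s - p t))‖ := norm_sub_le _ _
      _ ≤ ‖(a - σ) * (p s - p t)‖ * ‖b‖ + ‖b‖ * ‖(a - σ) * (p s - p t)‖ :=
          add_le_add (norm_mul_le _ _) (norm_mul_le _ _)
      _ ≤ (t - s) * ‖b‖ + ‖b‖ * (t - s) := by gcongr
      _ = 2 * ‖b‖ * (t - s) := by ring
  have h0 : p (-‖a‖ - 1) = 1 := by
    rw [hpt]
    exact rangeProj_of_isUnit _ (cutPos_isUnit a ha (by linarith))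
  have h1 : p ‖a‖ = 0 := by
    rw [hpt, cutPos_of_norm_le a ha le_rfl, rangeProj_zero]
  have hD := bisect_zero (a * b - b * a) p hstar hidem hmono hcomm (-‖a‖ - 1) ‖a‖
    (by linarith [norm_nonneg a]) h0 h1 (2 * ‖b‖) hbound
  exact sub_eq_zero.1 hD

/-- The polar part of a square-zero element on a spectral gap. -/
theorem exists_corner_of_sq_zero (N : VonNeumannAlgebra H) (c : H →L[ℂ] H) (hc : c ∈ N)
    (hc2 : c * c = 0) (hc0 : c ≠ 0) :
    ∃ v ∈ N, v * v = 0 ∧ v * star v * v = v ∧ v ≠ 0 := by
  obtain ⟨a, ha_def⟩ : ∃ a : H →L[ℂ] H, a = star c * c := ⟨_, rfl⟩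
  have ha : IsSelfAdjoint a := by
    rw [ha_def]
    exact IsSelfAdjoint.star_mul_self c
  have haN : a ∈ N := by
    rw [ha_def]
    exact mul_mem (star_mem hc) hc
  have hnorm : 0 < ‖a‖ := by
    rw [ha_def, CStarRing.norm_star_mul_self]
    exact mul_pos (norm_pos_iff.2 hc0) (norm_pos_iff.2 hc0)
  have hspec : ∀ r ∈ spectrum ℝ a, 0 ≤ r := by
    rw [ha_def]
    exact spectrum_star_mul_self_nonneg
  have ht : 0 < ‖a‖ / 2 := by positivity
  have htlt : ‖a‖ / 2 < ‖a‖ := by linarith
  have hP0 : cutPos a (‖a‖ / 2) ≠ 0 := cutPos_ne_zero a ha hspec ht.le htlt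
  have hPN : cutPos a (‖a‖ / 2) ∈ N := cutPos_mem N a haN _
  obtain ⟨e, he_def⟩ : ∃ e : H →L[ℂ] H, e = rangeProj (cutPos a (‖a‖ / 2)) := ⟨_, rfl⟩
  have heN : e ∈ N := by
    rw [he_def]
    exact rangeProj_mem N _ hPN
  have hes : star e = e := by
    rw [he_def]
    exact rangeProj_star _
  have hee : e * e = e := by
    rw [he_def]
    exact rangeProj_mul_self _
  have he0 : e ≠ 0 := by
    intro h0
    apply hP0
    have h1 := rangeProj_mul (cutPos a (‖a‖ / 2))
    rw [← he_def, h0, zero_mul] at h1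
    exact h1.symm
  obtain ⟨G, hGs, hGc, hG⟩ := exists_inv_sqrt_on_cut a ha ht
  have hGN : G ∈ N := by
    apply vn_mem_of_commute
    intro y hy
    apply hGc
    exact ((VonNeumannAlgebra.mem_commutant_iff.1 hy) a haN).symm
  have hGe : G * a * G * e = e := by
    have h1 := mul_rangeProj_eq_zero _ _ hG
    rw [← he_def, sub_mul, one_mul] at h1
    exact sub_eq_zero.1 h1
  obtain ⟨m, hm⟩ := cutPos_eq_mul a ha ht
  have hca : star c * a = 0 := by
    rw [ha_def, ← mul_assoc, ← star_mul, hc2, star_zero, zero_mul]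
  have hce : star c * e = 0 := by
    rw [he_def]
    apply mul_rangeProj_eq_zero
    rw [hm, ← mul_assoc, hca, zero_mul]
  have hec : e * c = 0 := by
    have h1 := congrArg star hce
    rwa [star_mul, star_star, hes, star_zero] at h1
  have hsv : star (c * G * e) * (c * G * e) = e := by
    rw [star_mul, star_mul, hes, hGs]
    calc e * (G * star c) * (c * G * e) = e * (G * (star c * c) * G * e) := by
          simp only [mul_assoc]
      _ = e := by rw [← ha_def, hGe, hee]
  refine ⟨c * G * e, mul_mem (mul_mem hc hGN) heN, ?_, ?_, ?_⟩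
  · calc c * G * e * (c * G * e) = c * G * (e * c) * G * e := by simp only [mul_assoc]
      _ = 0 := by rw [hec, mul_zero, zero_mul, zero_mul]
  · rw [mul_assoc, hsv, mul_assoc, hee]
  · intro hv0
    rw [hv0, mul_zero] at hsv
    exact he0 hsv.symm

/-- A non-commutative von Neumann algebra contains a nonzero square-zero element. -/
theorem exists_sq_zero_of_noncomm (N : VonNeumannAlgebra H) (x y : H →L[ℂ] H) (hx : x ∈ N)
    (hy : y ∈ N) (hxy : x * y ≠ y * x) :
    ∃ c ∈ N, c * c = 0 ∧ c ≠ 0 := by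
  obtain ⟨a, haN, ha, hab⟩ : ∃ a ∈ N, IsSelfAdjoint a ∧ a * y ≠ y * a := by
    by_contra hcon
    push Not at hcon
    apply hxy
    have hs1 : IsSelfAdjoint (x + star x) := by
      rw [isSelfAdjoint_iff, star_add, star_star, add_comm]
    have hs2 : IsSelfAdjoint (Complex.I • (x - star x)) := by
      rw [isSelfAdjoint_iff, star_smul, star_sub, star_star, Complex.star_def, Complex.conj_I]
      module
    have h1 := hcon (x + star x) (add_mem hx (star_mem hx)) hs1
    have h2 := hcon (Complex.I • (x - star x)) (vn_smul_mem N _ (sub_mem hx (star_mem hx))) hs2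
    have hI : (-Complex.I / 2 : ℂ) * Complex.I = 1 / 2 := by
      rw [neg_div, neg_mul, div_mul_eq_mul_div, Complex.I_mul_I]
      norm_num
    have e : x = (1 / 2 : ℂ) • (x + star x)
        + (-Complex.I / 2 : ℂ) • (Complex.I • (x - star x)) := by
      rw [smul_smul, hI]
      module
    rw [e, add_mul, mul_add, smul_mul_assoc, smul_mul_assoc, mul_smul_comm, mul_smul_comm, h1, h2]
  obtain ⟨t, ht⟩ : ∃ t : ℝ, rangeProj (cutPos a t) * y ≠ y * rangeProj (cutPos a t) := by
    by_contra hcon
    push Not at hcon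
    exact hab (commute_of_cuts a y ha hcon)
  obtain ⟨p, hp⟩ : ∃ p : H →L[ℂ] H, p = rangeProj (cutPos a t) := ⟨_, rfl⟩
  rw [← hp] at ht
  have hpN : p ∈ N := by
    rw [hp]
    exact rangeProj_mem N _ (cutPos_mem N a haN t)
  have hpp : p * p = p := by
    rw [hp]
    exact rangeProj_mul_self _
  have hq : (1 - p) * p = 0 := by rw [sub_mul, one_mul, hpp, sub_self]
  have hq' : p * (1 - p) = 0 := by rw [mul_sub, mul_one, hpp, sub_self]
  have h1N : (1 - p) ∈ N := sub_mem (one_mem N) hpN
  by_cases hc1 : p * y * (1 - p) = 0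
  · refine ⟨(1 - p) * y * p, mul_mem (mul_mem h1N hy) hpN, ?_, ?_⟩
    · calc (1 - p) * y * p * ((1 - p) * y * p) = (1 - p) * y * (p * (1 - p)) * y * p := by
            simp only [mul_assoc]
        _ = 0 := by rw [hq', mul_zero, zero_mul, zero_mul]
    · intro hc2
      apply ht
      have e1 : p * y = p * y * p := by
        have := hc1
        rw [mul_sub, mul_one, sub_eq_zero] at this
        exact this
      have e2 : y * p = p * y * p := by
        have := hc2
        rw [sub_mul, sub_mul, one_mul, sub_eq_zero, mul_assoc] at this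
        rw [this, mul_assoc]
      rw [e1, e2]
  · refine ⟨p * y * (1 - p), mul_mem (mul_mem hpN hy) h1N, ?_, hc1⟩
    calc p * y * (1 - p) * (p * y * (1 - p)) = p * y * ((1 - p) * p) * y * (1 - p) := by
          simp only [mul_assoc]
      _ = 0 := by rw [hq, mul_zero, zero_mul, zero_mul]

/-- A commutative von Neumann algebra stays at distance at least one from some symmetry of any
non-commutative von Neumann algebra. -/
theorem exists_far_symmetry_noncomm (M N : VonNeumannAlgebra H)
    (hM : ∀ a ∈ M, ∀ b ∈ M, a * b = b * a)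
    (x y : H →L[ℂ] H) (hx : x ∈ N) (hy : y ∈ N) (hxy : x * y ≠ y * x) :
    ∃ z ∈ N, star z = z ∧ z * z = 1 ∧ ∀ w ∈ M, 1 ≤ ‖z - w‖ := by
  obtain ⟨c, hcN, hc2, hc0⟩ := exists_sq_zero_of_noncomm N x y hx hy hxy
  obtain ⟨v, hvN, hv2, hv, hv0⟩ := exists_corner_of_sq_zero N c hcN hc2 hc0
  exact exists_far_symmetry_corner_vn M N hM v hvN hv2 hv hv0

end NC

end Vale.Agent.Lib.P096
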